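import Mathlib

/-!
# Johnson covariance lemma (J2) for the switch-chain proof (S0453, WP-F)

`K = D.powersetCard s` (the `s`-subsets of a finite set `D`), `φ : Finset α → ℝ`.
For `c z ∈ D` let `sep c z A = 1` iff `A` contains exactly one of `c, z`.
`jEnergy D s φ` is the ordered exchange sum (twice the sum over Johnson edges).
Main result `johnson_cov_le`:
`∑_{c,z ∈ D} S(c,z)^2 / (|K|^2 * ∑_A sep c z A) ≤ (1/2) * jEnergy`,
where `S(c,z) = |K| ∑_A φ A sep c z A - (∑_A φ A)(∑_A sep c z A)`.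
-/

namespace Crest.Agent.Helper49.SW

open Finset

variable {α : Type*} [DecidableEq α]

/-- `sep c z A = 1` iff `A` contains exactly one of `c`, `z`. -/
noncomputable def sep (c z : α) (A : Finset α) : ℝ := if (c ∈ A ↔ z ∈ A) then 0 else 1

/-- The exchange `A - u + w`. -/
def exch (A : Finset α) (u w : α) : Finset α := insert w (A.erase u)

/-- Swap the memberships of `c` and `z`. -/
def swapSet (c z : α) (A : Finset α) : Finset α := A.map (Equiv.swap c z).toEmbedding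

/-- Ordered exchange energy: twice the sum over the edges of the Johnson graph. -/
noncomputable def jEnergy (D : Finset α) (s : ℕ) (φ : Finset α → ℝ) : ℝ :=
  ∑ A ∈ D.powersetCard s, ∑ u ∈ A, ∑ w ∈ D \ A, (φ A - φ (exch A u w)) ^ 2

/-- `|K|^2` times the covariance of `φ` and `sep c z` on `K = D.powersetCard s`. -/
noncomputable def covS (D : Finset α) (s : ℕ) (φ : Finset α → ℝ) (c z : α) : ℝ :=
  ((D.powersetCard s).card : ℝ) * ∑ A ∈ D.powersetCard s, φ A * sep c z A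
    - (∑ A ∈ D.powersetCard s, φ A) * ∑ A ∈ D.powersetCard s, sep c z A

/-- The number of `A ∈ K` separating `c` and `z`. -/
noncomputable def nSep (D : Finset α) (s : ℕ) (c z : α) : ℝ :=
  ∑ A ∈ D.powersetCard s, sep c z A

/-! ### basic facts on `sep` and `swapSet` -/

lemma sep_comm (c z : α) (A : Finset α) : sep c z A = sep z c A := by
  unfold sep
  by_cases h : (c ∈ A ↔ z ∈ A)
  · rw [if_pos h, if_pos h.symm]
  · rw [if_neg h, if_neg (fun h' => h h'.symm)]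

lemma sep_self (c : α) (A : Finset α) : sep c c A = 0 := by
  unfold sep; simp

lemma sep_nonneg (c z : α) (A : Finset α) : 0 ≤ sep c z A := by
  unfold sep; split_ifs <;> norm_num

lemma mem_swapSet {c z x : α} {A : Finset α} : x ∈ swapSet c z A ↔ Equiv.swap c z x ∈ A := by
  unfold swapSet
  rw [Finset.mem_map_equiv]
  simp

lemma swapSet_comm (c z : α) (A : Finset α) : swapSet c z A = swapSet z c A := by
  unfold swapSet; rw [Equiv.swap_comm]

lemma swapSet_swapSet (c z : α) (A : Finset α) : swapSet c z (swapSet c z A) = A := by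
  ext x
  rw [mem_swapSet, mem_swapSet, Equiv.swap_apply_self]

lemma card_swapSet (c z : α) (A : Finset α) : (swapSet c z A).card = A.card := by
  unfold swapSet; exact Finset.card_map _

lemma swapSet_subset {D : Finset α} {c z : α} (hc : c ∈ D) (hz : z ∈ D) {A : Finset α}
    (hA : A ⊆ D) : swapSet c z A ⊆ D := by
  intro x hx
  rw [mem_swapSet] at hx
  by_cases h1 : x = c
  · subst h1; exact hc
  by_cases h2 : x = z
  · subst h2; exact hz
  rw [Equiv.swap_apply_of_ne_of_ne h1 h2] at hx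
  exact hA hx

lemma swapSet_mem_powersetCard {D : Finset α} {s : ℕ} {c z : α} (hc : c ∈ D) (hz : z ∈ D)
    {A : Finset α} (hA : A ∈ D.powersetCard s) : swapSet c z A ∈ D.powersetCard s := by
  rw [Finset.mem_powersetCard] at hA ⊢
  exact ⟨swapSet_subset hc hz hA.1, by rw [card_swapSet]; exact hA.2⟩

/-- Reindexing a sum over `K` by the swap involution. -/
lemma sum_swapSet {D : Finset α} {s : ℕ} {c z : α} (hc : c ∈ D) (hz : z ∈ D)
    (F : Finset α → ℝ) :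
    ∑ A ∈ D.powersetCard s, F (swapSet c z A) = ∑ A ∈ D.powersetCard s, F A := by
  refine Finset.sum_nbij' (fun A => swapSet c z A) (fun A => swapSet c z A) ?_ ?_ ?_ ?_ ?_
  · intro A hA; exact swapSet_mem_powersetCard hc hz hA
  · intro A hA; exact swapSet_mem_powersetCard hc hz hA
  · intro A _; exact swapSet_swapSet c z A
  · intro A _; exact swapSet_swapSet c z A
  · intro A _; rfl

lemma swapSet_eq_self {c z : α} {A : Finset α} (h : c ∈ A ↔ z ∈ A) : swapSet c z A = A := by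
  ext x
  rw [mem_swapSet]
  by_cases h1 : x = c
  · subst h1; rw [Equiv.swap_apply_left]; exact h.symm
  by_cases h2 : x = z
  · subst h2; rw [Equiv.swap_apply_right]; exact h
  rw [Equiv.swap_apply_of_ne_of_ne h1 h2]

lemma swapSet_eq_exch {c z : α} {A : Finset α} (hc : c ∈ A) (hz : z ∉ A) :
    swapSet c z A = exch A c z := by
  have hcz : c ≠ z := fun h => hz (h ▸ hc)
  ext x
  rw [mem_swapSet]
  unfold exch
  rw [Finset.mem_insert, Finset.mem_erase]
  by_cases h1 : x = c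
  · subst h1; rw [Equiv.swap_apply_left]
    constructor
    · intro h; exact absurd h hz
    · rintro (h | ⟨h, _⟩)
      · exact absurd h hcz
      · exact absurd rfl h
  by_cases h2 : x = z
  · subst h2; rw [Equiv.swap_apply_right]
    exact ⟨fun _ => Or.inl rfl, fun _ => hc⟩
  rw [Equiv.swap_apply_of_ne_of_ne h1 h2]
  exact ⟨fun h => Or.inr ⟨h1, h⟩, fun h => h.elim (fun h => absurd h h2) (fun h => h.2)⟩

/-- `sep c d ∘ swap(c,z) = sep z d` for `d ∉ {c,z}`. -/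
lemma sep_swapSet_left {c z d : α} (hdc : d ≠ c) (hdz : d ≠ z) (A : Finset α) :
    sep c d (swapSet c z A) = sep z d A := by
  unfold sep
  have h1 : c ∈ swapSet c z A ↔ z ∈ A := by rw [mem_swapSet, Equiv.swap_apply_left]
  have h2 : d ∈ swapSet c z A ↔ d ∈ A := by
    rw [mem_swapSet, Equiv.swap_apply_of_ne_of_ne hdc hdz]
  simp only [h1, h2]

lemma sep_swapSet_right {c z d : α} (hdc : d ≠ c) (hdz : d ≠ z) (A : Finset α) :
    sep z d (swapSet c z A) = sep c d A := by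
  rw [swapSet_comm]; exact sep_swapSet_left hdz hdc A

/-- `(sep c d - sep z d)^2 = sep c z`. -/
lemma sep_sub_sq (c z d : α) (A : Finset α) :
    (sep c d A - sep z d A) ^ 2 = sep c z A := by
  unfold sep
  by_cases h1 : c ∈ A <;> by_cases h2 : z ∈ A <;> by_cases h3 : d ∈ A <;> simp [h1, h2, h3]

/-! ### algebraic identities -/

omit [DecidableEq α] in
/-- `∑_{c,z ∈ s} (x c - x z)^2 = 2 |s| ∑ x^2 - 2 (∑ x)^2`. -/
lemma sum_sum_sub_sq (s : Finset α) (x : α → ℝ) :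
    ∑ c ∈ s, ∑ z ∈ s, (x c - x z) ^ 2
      = 2 * (s.card : ℝ) * ∑ c ∈ s, x c ^ 2 - 2 * (∑ c ∈ s, x c) ^ 2 := by
  have h : ∀ c z, (x c - x z) ^ 2 = x c ^ 2 - 2 * (x c * x z) + x z ^ 2 := by intros; ring
  have e1 : ∑ c ∈ s, ∑ _z ∈ s, x c ^ 2 = (s.card : ℝ) * ∑ c ∈ s, x c ^ 2 := by
    simp only [Finset.sum_const, nsmul_eq_mul, ← Finset.mul_sum]
  have e2 : ∑ c ∈ s, ∑ z ∈ s, 2 * (x c * x z) = 2 * (∑ c ∈ s, x c) ^ 2 := by
    simp only [← Finset.mul_sum, ← Finset.sum_mul]; ring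
  have e3 : ∑ _c ∈ s, ∑ z ∈ s, x z ^ 2 = (s.card : ℝ) * ∑ c ∈ s, x c ^ 2 := by
    simp only [Finset.sum_const, nsmul_eq_mul]
  simp only [h, Finset.sum_add_distrib, Finset.sum_sub_distrib]
  rw [e1, e2, e3]; ring

lemma sum_erase_sub_sq {D : Finset α} {d : α} (hd : d ∈ D) (x : α → ℝ) (hx : x d = 0) :
    ∑ c ∈ D.erase d, ∑ z ∈ D.erase d, (x c - x z) ^ 2
      = 2 * ((D.card : ℝ) - 1) * ∑ c ∈ D, x c ^ 2 - 2 * (∑ c ∈ D, x c) ^ 2 := by
  rw [sum_sum_sub_sq, Finset.card_erase_of_mem hd]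
  have h1 : ∑ c ∈ D.erase d, x c ^ 2 = ∑ c ∈ D, x c ^ 2 := by
    rw [Finset.sum_erase_eq_sub hd, hx]; ring
  have h2 : ∑ c ∈ D.erase d, x c = ∑ c ∈ D, x c := by
    rw [Finset.sum_erase_eq_sub hd, hx]; ring
  rw [h1, h2]
  have h3 : 1 ≤ D.card := Finset.card_pos.mpr ⟨d, hd⟩
  rw [Nat.cast_sub h3]; push_cast; ring

/-- The spectral gap of the graph on pairs (`p ~ p'` iff they share one point), in the form
used below: `t * ∑ κ^2 ≤ ∑ (κ_cd - κ_zd)^2` for symmetric `κ` with zero diagonal and zero sum. -/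
lemma pair_graph_ineq (D : Finset α) (κ : α → α → ℝ) (hsym : ∀ c z, κ c z = κ z c)
    (hdiag : ∀ c, κ c c = 0) (hsum : ∑ c ∈ D, ∑ z ∈ D, κ c z = 0) (ht : 3 ≤ D.card) :
    (D.card : ℝ) * ∑ d ∈ D, ∑ c ∈ D, κ c d ^ 2
      ≤ ∑ d ∈ D, ∑ c ∈ D.erase d, ∑ z ∈ D.erase d, (κ c d - κ z d) ^ 2 := by
  have ht' : (3 : ℝ) ≤ (D.card : ℝ) := by exact_mod_cast ht
  -- T = 2(t-1)Q - 2B
  have hT : ∑ d ∈ D, ∑ c ∈ D.erase d, ∑ z ∈ D.erase d, (κ c d - κ z d) ^ 2
      = 2 * ((D.card : ℝ) - 1) * (∑ d ∈ D, ∑ c ∈ D, κ c d ^ 2)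
        - 2 * ∑ d ∈ D, (∑ c ∈ D, κ c d) ^ 2 := by
    have h : ∀ d ∈ D, ∑ c ∈ D.erase d, ∑ z ∈ D.erase d, (κ c d - κ z d) ^ 2
        = 2 * ((D.card : ℝ) - 1) * ∑ c ∈ D, κ c d ^ 2 - 2 * (∑ c ∈ D, κ c d) ^ 2 := by
      intro d hd
      exact sum_erase_sub_sq hd (fun c => κ c d) (hdiag d)
    rw [Finset.sum_congr rfl h, Finset.sum_sub_distrib, ← Finset.mul_sum, ← Finset.mul_sum]
  -- abbreviations
  obtain ⟨β, hβ⟩ : ∃ β : α → ℝ, ∀ d, β d = ∑ c ∈ D, κ c d := ⟨fun d => ∑ c ∈ D, κ c d, fun _ => rfl⟩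
  obtain ⟨Q, hQ⟩ : ∃ Q : ℝ, Q = ∑ d ∈ D, ∑ c ∈ D, κ c d ^ 2 := ⟨_, rfl⟩
  obtain ⟨B, hB⟩ : ∃ B : ℝ, B = ∑ d ∈ D, β d ^ 2 := ⟨_, rfl⟩
  obtain ⟨t, htt⟩ : ∃ t : ℝ, t = (D.card : ℝ) := ⟨_, rfl⟩
  have hβsum : ∑ d ∈ D, β d = 0 := by
    simp only [hβ]; rw [Finset.sum_comm]; exact hsum
  have hβ' : ∀ z, ∑ u ∈ D, κ z u = β z := by
    intro z; rw [hβ]; exact Finset.sum_congr rfl (fun u _ => hsym z u)
  have hsos : 0 ≤ ∑ u ∈ D, ∑ z ∈ D.erase u, ((t - 2) * κ z u - (β u + β z)) ^ 2 :=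
    Finset.sum_nonneg (fun u _ => Finset.sum_nonneg (fun z _ => sq_nonneg _))
  have hper : ∀ u ∈ D, ∑ z ∈ D.erase u, ((t - 2) * κ z u - (β u + β z)) ^ 2
      = (t - 2) ^ 2 * (∑ z ∈ D, κ z u ^ 2) - 2 * (t - 2) * (β u * β u)
        - 2 * (t - 2) * (∑ z ∈ D, κ z u * β z) + t * β u ^ 2 + 2 * β u * (∑ z ∈ D, β z) + B
        - 4 * β u ^ 2 := by
    intro u hu
    rw [Finset.sum_erase_eq_sub hu, hdiag u]
    have h : ∀ z, ((t - 2) * κ z u - (β u + β z)) ^ 2
        = (t - 2) ^ 2 * κ z u ^ 2 - 2 * (t - 2) * (κ z u * β u) - 2 * (t - 2) * (κ z u * β z)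
          + β u ^ 2 + 2 * β u * β z + β z ^ 2 := by intro z; ring
    have p1 : ∑ z ∈ D, (t - 2) ^ 2 * κ z u ^ 2 = (t - 2) ^ 2 * ∑ z ∈ D, κ z u ^ 2 := by
      rw [Finset.mul_sum]
    have p2 : ∑ z ∈ D, 2 * (t - 2) * (κ z u * β u) = 2 * (t - 2) * (β u * β u) := by
      rw [← Finset.mul_sum, ← Finset.sum_mul, ← hβ u]
    have p3 : ∑ z ∈ D, 2 * (t - 2) * (κ z u * β z) = 2 * (t - 2) * ∑ z ∈ D, κ z u * β z := by
      rw [Finset.mul_sum]
    have p4 : ∑ _z ∈ D, β u ^ 2 = t * β u ^ 2 := by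
      rw [Finset.sum_const, nsmul_eq_mul, htt]
    have p5 : ∑ z ∈ D, 2 * β u * β z = 2 * β u * ∑ z ∈ D, β z := by
      rw [Finset.mul_sum]
    simp only [h, Finset.sum_add_distrib, Finset.sum_sub_distrib]
    rw [p1, p2, p3, p4, p5, ← hB]; ring
  have hm : ∑ u ∈ D, ∑ z ∈ D, κ z u * β z = B := by
    rw [Finset.sum_comm, hB]
    refine Finset.sum_congr rfl (fun z _ => ?_)
    rw [← Finset.sum_mul, hβ' z]; ring
  have hexp : ∑ u ∈ D, ∑ z ∈ D.erase u, ((t - 2) * κ z u - (β u + β z)) ^ 2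
      = (t - 2) * ((t - 2) * Q - 2 * B) := by
    rw [Finset.sum_congr rfl hper]
    simp only [Finset.sum_add_distrib, Finset.sum_sub_distrib, ← Finset.mul_sum, hβsum]
    rw [hm, Finset.sum_const, nsmul_eq_mul, ← htt, ← hQ]
    have e : ∑ x ∈ D, β x * β x = B := by
      rw [hB]; exact Finset.sum_congr rfl (fun x _ => by ring)
    rw [e, ← hB]; simp only [mul_zero, Finset.sum_const_zero]; ring
  rw [hexp] at hsos
  have ht2 : 0 < t - 2 := by rw [htt]; linarith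
  have hkey : 0 ≤ (t - 2) * Q - 2 * B := by
    have h0 : (t - 2) * 0 ≤ (t - 2) * ((t - 2) * Q - 2 * B) := by rw [mul_zero]; exact hsos
    exact le_of_mul_le_mul_left h0 ht2
  rw [hT]
  have hB2 : ∑ d ∈ D, (∑ c ∈ D, κ c d) ^ 2 = B := by
    rw [hB]; exact Finset.sum_congr rfl (fun d _ => by rw [hβ d])
  rw [hB2, ← hQ, ← htt]
  linarith

/-! ### splitting a double sum over `D` along `A ⊆ D` -/

lemma sum_sum_split {D A : Finset α} (hA : A ⊆ D) (g : α → α → ℝ)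
    (hg : ∀ c z, (c ∈ A ↔ z ∈ A) → g c z = 0) :
    ∑ c ∈ D, ∑ z ∈ D, g c z
      = ∑ u ∈ A, ∑ w ∈ D \ A, g u w + ∑ u ∈ A, ∑ w ∈ D \ A, g w u := by
  have h1 : ∀ c ∈ A, ∑ z ∈ D, g c z = ∑ w ∈ D \ A, g c w := by
    intro c hc
    rw [← Finset.sum_sdiff hA]
    have h0 : ∑ z ∈ A, g c z = 0 :=
      Finset.sum_eq_zero (fun z hz => hg c z ⟨fun _ => hz, fun _ => hc⟩)
    rw [h0, add_zero]
  have h2 : ∀ c ∈ D \ A, ∑ z ∈ D, g c z = ∑ u ∈ A, g c u := by
    intro c hc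
    rw [Finset.mem_sdiff] at hc
    rw [← Finset.sum_sdiff hA]
    have h0 : ∑ z ∈ D \ A, g c z = 0 := Finset.sum_eq_zero (fun z hz => by
      rw [Finset.mem_sdiff] at hz
      exact hg c z ⟨fun h => absurd h hc.2, fun h => absurd h hz.2⟩)
    rw [h0, zero_add]
  rw [← Finset.sum_sdiff hA, Finset.sum_congr rfl h1, Finset.sum_congr rfl h2, Finset.sum_comm,
    add_comm]

/-! ### symmetries of `covS`, `nSep` -/

lemma covS_comm (D : Finset α) (s : ℕ) (φ : Finset α → ℝ) (c z : α) :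
    covS D s φ c z = covS D s φ z c := by
  unfold covS
  simp only [sep_comm c z]

lemma covS_self (D : Finset α) (s : ℕ) (φ : Finset α → ℝ) (c : α) : covS D s φ c c = 0 := by
  unfold covS
  simp only [sep_self, mul_zero, Finset.sum_const_zero, sub_zero]

lemma nSep_comm (D : Finset α) (s : ℕ) (c z : α) : nSep D s c z = nSep D s z c := by
  unfold nSep
  simp only [sep_comm c z]

lemma nSep_self (D : Finset α) (s : ℕ) (c : α) : nSep D s c c = 0 := by
  unfold nSep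
  simp only [sep_self, Finset.sum_const_zero]

lemma nSep_nonneg (D : Finset α) (s : ℕ) (c z : α) : 0 ≤ nSep D s c z :=
  Finset.sum_nonneg (fun A _ => sep_nonneg c z A)

lemma nSep_eq_swap {D : Finset α} {s : ℕ} {c z d : α} (hc : c ∈ D) (hz : z ∈ D)
    (hdc : d ≠ c) (hdz : d ≠ z) : nSep D s c d = nSep D s z d := by
  unfold nSep
  rw [← sum_swapSet hc hz (fun A => sep c d A)]
  exact Finset.sum_congr rfl (fun A _ => sep_swapSet_left hdc hdz A)

/-- `nSep c z` does not depend on the pair of distinct points `c, z ∈ D`. -/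
lemma nSep_eq_of_ne {D : Finset α} {s : ℕ} {c z c' z' : α} (hc : c ∈ D) (hz : z ∈ D)
    (hc' : c' ∈ D) (hz' : z' ∈ D) (hcz : c ≠ z) (hcz' : c' ≠ z') :
    nSep D s c z = nSep D s c' z' := by
  by_cases h1 : z = c'
  · by_cases h2 : z' = c
    · rw [← h1, h2]; exact nSep_comm D s _ _
    · have hzz' : z' ≠ z := fun h => hcz' (h1 ▸ h.symm)
      calc nSep D s c z = nSep D s z c := nSep_comm D s c z
        _ = nSep D s z' c := nSep_eq_swap hz hz' hcz (Ne.symm h2)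
        _ = nSep D s c z' := nSep_comm D s z' c
        _ = nSep D s z z' := nSep_eq_swap hc hz h2 hzz'
        _ = nSep D s c' z' := by rw [h1]
  · calc nSep D s c z = nSep D s c' z := nSep_eq_swap hc hc' (Ne.symm hcz) h1
      _ = nSep D s z c' := nSep_comm D s c' z
      _ = nSep D s z' c' := nSep_eq_swap hz hz' (Ne.symm h1) hcz'
      _ = nSep D s c' z' := nSep_comm D s z' c'

/-! ### `∑_{c,z} covS c z = 0` -/

lemma sum_sum_sep {D : Finset α} {s : ℕ} {A : Finset α} (hA : A ∈ D.powersetCard s) :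
    ∑ c ∈ D, ∑ z ∈ D, sep c z A = 2 * (s : ℝ) * ((D.card : ℝ) - s) := by
  rw [Finset.mem_powersetCard] at hA
  have hsplit : ∑ c ∈ D, ∑ z ∈ D, sep c z A
      = ∑ u ∈ A, ∑ w ∈ D \ A, sep u w A + ∑ u ∈ A, ∑ w ∈ D \ A, sep w u A :=
    sum_sum_split hA.1 (fun c z => sep c z A) (fun c z h => by unfold sep; rw [if_pos h])
  have h1 : ∀ u ∈ A, ∀ w ∈ D \ A, sep u w A = 1 := by
    intro u hu w hw
    rw [Finset.mem_sdiff] at hw
    unfold sep
    rw [if_neg]
    intro h; exact hw.2 (h.mp hu)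
  have h2 : ∀ u ∈ A, ∀ w ∈ D \ A, sep w u A = 1 := by
    intro u hu w hw; rw [sep_comm]; exact h1 u hu w hw
  rw [hsplit, Finset.sum_congr rfl (fun u hu => Finset.sum_congr rfl (h1 u hu)),
    Finset.sum_congr rfl (fun u hu => Finset.sum_congr rfl (h2 u hu))]
  simp only [Finset.sum_const, nsmul_eq_mul, mul_one]
  rw [Finset.card_sdiff_of_subset hA.1, Nat.cast_sub (Finset.card_le_card hA.1), hA.2]
  ring

lemma sum_sum_sum_sep (D : Finset α) (s : ℕ) (ψ : Finset α → ℝ) :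
    ∑ c ∈ D, ∑ z ∈ D, ∑ A ∈ D.powersetCard s, ψ A * sep c z A
      = 2 * (s : ℝ) * ((D.card : ℝ) - s) * ∑ A ∈ D.powersetCard s, ψ A := by
  have e : ∑ c ∈ D, ∑ z ∈ D, ∑ A ∈ D.powersetCard s, ψ A * sep c z A
      = ∑ c ∈ D, ∑ A ∈ D.powersetCard s, ∑ z ∈ D, ψ A * sep c z A :=
    Finset.sum_congr rfl (fun c _ => Finset.sum_comm)
  rw [e, Finset.sum_comm, Finset.mul_sum]
  refine Finset.sum_congr rfl (fun A hA => ?_)
  simp only [← Finset.mul_sum]
  rw [sum_sum_sep hA]; ring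

lemma sum_sum_covS (D : Finset α) (s : ℕ) (φ : Finset α → ℝ) :
    ∑ c ∈ D, ∑ z ∈ D, covS D s φ c z = 0 := by
  unfold covS
  have e1 := sum_sum_sum_sep D s φ
  have e2 := sum_sum_sum_sep D s (fun _ => (1 : ℝ))
  simp only [one_mul, Finset.sum_const, nsmul_eq_mul, mul_one] at e2
  simp only [Finset.sum_sub_distrib, ← Finset.mul_sum]
  rw [e1, e2]; ring

/-! ### the exchangeable-pair step -/

/-- `∑_A (φ A - φ (τ_cz A))^2`. -/
noncomputable def swapEnergy (D : Finset α) (s : ℕ) (φ : Finset α → ℝ) (c z : α) : ℝ :=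
  ∑ A ∈ D.powersetCard s, (φ A - φ (swapSet c z A)) ^ 2

lemma swapEnergy_nonneg (D : Finset α) (s : ℕ) (φ : Finset α → ℝ) (c z : α) :
    0 ≤ swapEnergy D s φ c z :=
  Finset.sum_nonneg (fun _ _ => sq_nonneg _)

lemma swapEnergy_self (D : Finset α) (s : ℕ) (φ : Finset α → ℝ) (c : α) :
    swapEnergy D s φ c c = 0 := by
  unfold swapEnergy
  refine Finset.sum_eq_zero (fun A _ => ?_)
  rw [swapSet_eq_self Iff.rfl, sub_self]; ring

lemma covS_sub_sq_le {D : Finset α} {s : ℕ} (φ : Finset α → ℝ) {c z d : α} (hc : c ∈ D)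
    (hz : z ∈ D) (hdc : d ≠ c) (hdz : d ≠ z) :
    4 * (covS D s φ c d - covS D s φ z d) ^ 2
      ≤ ((D.powersetCard s).card : ℝ) ^ 2 * (nSep D s c z * swapEnergy D s φ c z) := by
  have hX : covS D s φ c d - covS D s φ z d
      = ((D.powersetCard s).card : ℝ)
        * ∑ A ∈ D.powersetCard s, φ A * (sep c d A - sep z d A) := by
    have hn := nSep_eq_swap (s := s) hc hz hdc hdz
    unfold nSep at hn
    unfold covS
    rw [hn]
    simp only [mul_sub, Finset.sum_sub_distrib]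
    ring
  have h2X : 2 * ∑ A ∈ D.powersetCard s, φ A * (sep c d A - sep z d A)
      = ∑ A ∈ D.powersetCard s, (φ A - φ (swapSet c z A)) * (sep c d A - sep z d A) := by
    have h := sum_swapSet (s := s) hc hz (fun A => φ A * (sep c d A - sep z d A))
    have h' : ∑ A ∈ D.powersetCard s, φ (swapSet c z A) * (sep z d A - sep c d A)
        = ∑ A ∈ D.powersetCard s, φ A * (sep c d A - sep z d A) := by
      rw [← h]
      refine Finset.sum_congr rfl (fun A _ => ?_)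
      rw [sep_swapSet_left hdc hdz, sep_swapSet_right hdc hdz]
    have h'' : ∑ A ∈ D.powersetCard s, (φ A - φ (swapSet c z A)) * (sep c d A - sep z d A)
        = ∑ A ∈ D.powersetCard s, φ A * (sep c d A - sep z d A)
          + ∑ A ∈ D.powersetCard s, φ (swapSet c z A) * (sep z d A - sep c d A) := by
      rw [← Finset.sum_add_distrib]
      exact Finset.sum_congr rfl (fun A _ => by ring)
    rw [h'', h']; ring
  have hCS := Finset.sum_mul_sq_le_sq_mul_sq (D.powersetCard s)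
    (fun A => φ A - φ (swapSet c z A)) (fun A => sep c d A - sep z d A)
  have hsep : ∑ A ∈ D.powersetCard s, (sep c d A - sep z d A) ^ 2 = nSep D s c z := by
    unfold nSep
    exact Finset.sum_congr rfl (fun A _ => sep_sub_sq c z d A)
  rw [hsep, ← h2X] at hCS
  have hE : ∑ A ∈ D.powersetCard s, (φ A - φ (swapSet c z A)) ^ 2 = swapEnergy D s φ c z := rfl
  rw [hE] at hCS
  rw [hX]
  have hN : (0 : ℝ) ≤ ((D.powersetCard s).card : ℝ) ^ 2 := sq_nonneg _
  have := mul_le_mul_of_nonneg_left hCS hN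
  calc 4 * (((D.powersetCard s).card : ℝ)
        * ∑ A ∈ D.powersetCard s, φ A * (sep c d A - sep z d A)) ^ 2
      = ((D.powersetCard s).card : ℝ) ^ 2
        * (2 * ∑ A ∈ D.powersetCard s, φ A * (sep c d A - sep z d A)) ^ 2 := by ring
    _ ≤ ((D.powersetCard s).card : ℝ) ^ 2 * (swapEnergy D s φ c z * nSep D s c z) := this
    _ = ((D.powersetCard s).card : ℝ) ^ 2 * (nSep D s c z * swapEnergy D s φ c z) := by ring

lemma sum_sum_swapEnergy (D : Finset α) (s : ℕ) (φ : Finset α → ℝ) :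
    ∑ c ∈ D, ∑ z ∈ D, swapEnergy D s φ c z = 2 * jEnergy D s φ := by
  unfold swapEnergy jEnergy
  have e : ∑ c ∈ D, ∑ z ∈ D, ∑ A ∈ D.powersetCard s, (φ A - φ (swapSet c z A)) ^ 2
      = ∑ c ∈ D, ∑ A ∈ D.powersetCard s, ∑ z ∈ D, (φ A - φ (swapSet c z A)) ^ 2 :=
    Finset.sum_congr rfl (fun c _ => Finset.sum_comm)
  rw [e, Finset.sum_comm, Finset.mul_sum]
  refine Finset.sum_congr rfl (fun A hA => ?_)
  rw [Finset.mem_powersetCard] at hA
  have hsplit : ∑ c ∈ D, ∑ z ∈ D, (φ A - φ (swapSet c z A)) ^ 2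
      = ∑ u ∈ A, ∑ w ∈ D \ A, (φ A - φ (swapSet u w A)) ^ 2
        + ∑ u ∈ A, ∑ w ∈ D \ A, (φ A - φ (swapSet w u A)) ^ 2 :=
    sum_sum_split hA.1 (fun c z => (φ A - φ (swapSet c z A)) ^ 2)
      (fun c z h => by rw [swapSet_eq_self h, sub_self]; ring)
  have h1 : ∀ u ∈ A, ∀ w ∈ D \ A,
      (φ A - φ (swapSet u w A)) ^ 2 = (φ A - φ (exch A u w)) ^ 2 := by
    intro u hu w hw
    rw [Finset.mem_sdiff] at hw
    rw [swapSet_eq_exch hu hw.2]
  have h2 : ∀ u ∈ A, ∀ w ∈ D \ A,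
      (φ A - φ (swapSet w u A)) ^ 2 = (φ A - φ (exch A u w)) ^ 2 := by
    intro u hu w hw
    rw [swapSet_comm]; exact h1 u hu w hw
  rw [hsplit, Finset.sum_congr rfl (fun u hu => Finset.sum_congr rfl (h1 u hu)),
    Finset.sum_congr rfl (fun u hu => Finset.sum_congr rfl (h2 u hu))]
  ring

lemma jEnergy_nonneg (D : Finset α) (s : ℕ) (φ : Finset α → ℝ) : 0 ≤ jEnergy D s φ :=
  Finset.sum_nonneg (fun _ _ => Finset.sum_nonneg (fun _ _ =>
    Finset.sum_nonneg (fun _ _ => sq_nonneg _)))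

/-! ### the Johnson covariance lemma -/

/-- Division-free form, `3 ≤ |D|`, with `ν` the common value of `nSep` on distinct pairs. -/
theorem covS_sq_sum_le {D : Finset α} (s : ℕ) (φ : Finset α → ℝ) (ν : ℝ)
    (hν : ∀ c ∈ D, ∀ z ∈ D, c ≠ z → nSep D s c z = ν) (h3 : 3 ≤ D.card) :
    ∑ d ∈ D, ∑ c ∈ D, covS D s φ c d ^ 2
      ≤ (1 / 2) * ((D.powersetCard s).card : ℝ) ^ 2 * ν * jEnergy D s φ := by
  have hpg := pair_graph_ineq D (covS D s φ) (covS_comm D s φ) (covS_self D s φ)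
    (sum_sum_covS D s φ) h3
  obtain ⟨c0, hc0, z0, hz0, hne⟩ := Finset.one_lt_card.mp (by omega : 1 < D.card)
  have hν0 : 0 ≤ ν := by rw [← hν c0 hc0 z0 hz0 hne]; exact nSep_nonneg D s c0 z0
  have hterm : ∀ c ∈ D, ∀ z ∈ D,
      nSep D s c z * swapEnergy D s φ c z = ν * swapEnergy D s φ c z := by
    intro c hc z hz
    by_cases h : c = z
    · subst h; rw [swapEnergy_self]; ring
    · rw [hν c hc z hz h]
  obtain ⟨N, hN⟩ : ∃ N : ℝ, N = ((D.powersetCard s).card : ℝ) := ⟨_, rfl⟩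
  rw [← hN]
  have hnn : ∀ c z, 0 ≤ (N ^ 2 * ν / 4) * swapEnergy D s φ c z := fun c z =>
    mul_nonneg (div_nonneg (mul_nonneg (sq_nonneg _) hν0) (by norm_num))
      (swapEnergy_nonneg D s φ c z)
  have hT : ∑ d ∈ D, ∑ c ∈ D.erase d, ∑ z ∈ D.erase d,
        (covS D s φ c d - covS D s φ z d) ^ 2
      ≤ ∑ _d ∈ D, ∑ c ∈ D, ∑ z ∈ D, (N ^ 2 * ν / 4) * swapEnergy D s φ c z := by
    refine Finset.sum_le_sum (fun d _ => ?_)
    calc ∑ c ∈ D.erase d, ∑ z ∈ D.erase d, (covS D s φ c d - covS D s φ z d) ^ 2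
        ≤ ∑ c ∈ D.erase d, ∑ z ∈ D.erase d, (N ^ 2 * ν / 4) * swapEnergy D s φ c z := by
          refine Finset.sum_le_sum (fun c hc => Finset.sum_le_sum (fun z hz => ?_))
          rw [Finset.mem_erase] at hc hz
          have h := covS_sub_sq_le (s := s) φ hc.2 hz.2 (Ne.symm hc.1) (Ne.symm hz.1)
          rw [hterm c hc.2 z hz.2, ← hN] at h
          linarith
      _ ≤ ∑ c ∈ D.erase d, ∑ z ∈ D, (N ^ 2 * ν / 4) * swapEnergy D s φ c z :=
          Finset.sum_le_sum (fun c _ => Finset.sum_le_sum_of_subset_of_nonneg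
            (Finset.erase_subset d D) (fun z _ _ => hnn c z))
      _ ≤ ∑ c ∈ D, ∑ z ∈ D, (N ^ 2 * ν / 4) * swapEnergy D s φ c z :=
          Finset.sum_le_sum_of_subset_of_nonneg (Finset.erase_subset d D)
            (fun c _ _ => Finset.sum_nonneg (fun z _ => hnn c z))
  have hsum : ∑ _d ∈ D, ∑ c ∈ D, ∑ z ∈ D, (N ^ 2 * ν / 4) * swapEnergy D s φ c z
      = (D.card : ℝ) * ((1 / 2) * N ^ 2 * ν * jEnergy D s φ) := by
    simp only [← Finset.mul_sum]
    rw [sum_sum_swapEnergy, Finset.sum_const, nsmul_eq_mul]; ring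
  rw [hsum] at hT
  have htpos : (0 : ℝ) < (D.card : ℝ) := by
    have : 0 < D.card := by omega
    exact_mod_cast this
  exact le_of_mul_le_mul_left (le_trans hpg hT) htpos

/-- **Johnson covariance lemma (J2)**, ordered pairs, `x / 0 = 0` convention:
`∑_{c,z ∈ D} (|K|² Cov_K(φ, sep c z))² / (|K|² · #{A : sep c z A}) ≤ (1/2) · jEnergy`,
i.e. `∑_{c,z} |K| Cov_K(φ,χ_cz)² / π_cz ≤ (1/2) jEnergy`. -/
theorem johnson_cov_le (D : Finset α) (s : ℕ) (φ : Finset α → ℝ) :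
    ∑ c ∈ D, ∑ z ∈ D,
        covS D s φ c z ^ 2 / (((D.powersetCard s).card : ℝ) ^ 2 * nSep D s c z)
      ≤ (1 / 2) * jEnergy D s φ := by
  have hJ := jEnergy_nonneg D s φ
  by_cases h3 : 3 ≤ D.card
  · obtain ⟨c0, hc0, z0, hz0, hne⟩ := Finset.one_lt_card.mp (by omega : 1 < D.card)
    have hν : ∀ c ∈ D, ∀ z ∈ D, c ≠ z → nSep D s c z = nSep D s c0 z0 :=
      fun c hc z hz h => nSep_eq_of_ne hc hz hc0 hz0 h hne
    have hmain := covS_sq_sum_le s φ (nSep D s c0 z0) hν h3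
    have hν0 : 0 ≤ nSep D s c0 z0 := nSep_nonneg D s c0 z0
    obtain ⟨N, hN⟩ : ∃ N : ℝ, N = ((D.powersetCard s).card : ℝ) := ⟨_, rfl⟩
    obtain ⟨ν, hνd⟩ : ∃ ν : ℝ, ν = nSep D s c0 z0 := ⟨_, rfl⟩
    rw [← hN, ← hνd] at hmain
    rw [← hνd] at hν0
    rw [← hN]
    have hterm : ∀ c ∈ D, ∀ z ∈ D, covS D s φ c z ^ 2 / (N ^ 2 * nSep D s c z)
        = covS D s φ c z ^ 2 / (N ^ 2 * ν) := by
      intro c hc z hz
      by_cases h : c = z
      · subst h; rw [covS_self]; simp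
      · rw [hν c hc z hz h, hνd]
    rw [Finset.sum_congr rfl (fun c hc => Finset.sum_congr rfl (hterm c hc))]
    simp only [← Finset.sum_div]
    by_cases h0 : N ^ 2 * ν = 0
    · rw [h0, div_zero]; linarith
    · have hpos : 0 < N ^ 2 * ν :=
        lt_of_le_of_ne (mul_nonneg (sq_nonneg _) hν0) (Ne.symm h0)
      rw [div_le_iff₀ hpos]
      have hcomm : ∑ c ∈ D, ∑ z ∈ D, covS D s φ c z ^ 2
          = ∑ d ∈ D, ∑ c ∈ D, covS D s φ c d ^ 2 := Finset.sum_comm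
      rw [hcomm]; linarith
  · have hzero : ∀ c ∈ D, ∀ z ∈ D, covS D s φ c z = 0 := by
      intro c hc z hz
      by_cases h : c = z
      · subst h; exact covS_self D s φ c
      · have hD : ({c, z} : Finset α) = D := by
          refine Finset.eq_of_subset_of_card_le ?_ ?_
          · intro x hx
            rw [Finset.mem_insert, Finset.mem_singleton] at hx
            rcases hx with rfl | rfl <;> assumption
          · rw [Finset.card_pair h]; omega
        have hs : ∑ c' ∈ ({c, z} : Finset α), ∑ z' ∈ ({c, z} : Finset α),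
            covS D s φ c' z' = 0 := by
          rw [hD]; exact sum_sum_covS D s φ
        simp only [Finset.sum_pair h, covS_self] at hs
        rw [covS_comm D s φ z c] at hs
        linarith
    have hall : ∑ c ∈ D, ∑ z ∈ D,
        covS D s φ c z ^ 2 / (((D.powersetCard s).card : ℝ) ^ 2 * nSep D s c z) = 0 :=
      Finset.sum_eq_zero (fun c hc => Finset.sum_eq_zero (fun z hz => by
        rw [hzero c hc z hz]; simp))
    rw [hall]; linarith

end Crest.Agent.Helper49.SW
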