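import Crest.Agent.Helper10.S0453.DP
import Crest.Agent.Helper49.SW.JohnsonCov

/-!
# S0453, BJ2: `(J2-graph)` from the Johnson structure of the pair classes

`j2Graph_of_model`: helper10's `J2Graph d f` follows from the pair-class interface
`PairClassJ2 d a b` (every `~_{ab}`-class is the injective image of some `D.powersetCard s`
under a map `ofSet` such that `SwAt (ofSet A) a b c e ↔ c ∈ A ∧ e ∈ D \ A` and the flip is the
Johnson exchange) and the abstract Johnson covariance lemma `johnson_cov_le`.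
Pure double counting.  (helper49)
-/

set_option autoImplicit false

namespace Crest.Agent.Helper49.SW

open Finset Crest.SwitchChain Crest.Agent.Helper65.Switch Crest.Agent.Helper10.S0453

/-! ### abstract transport along `ofSet` -/

section abstract

variable {X V : Type*} [DecidableEq V]

omit [DecidableEq V] in
lemma sum_ofSet {K : Finset X} {P : Finset (Finset V)} {ofSet : Finset V → X}
    (h1 : ∀ A ∈ P, ofSet A ∈ K) (h2 : ∀ x ∈ K, ∃ A ∈ P, ofSet A = x)
    (h3 : ∀ A ∈ P, ∀ A' ∈ P, ofSet A = ofSet A' → A = A') (F : X → ℝ) :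
    ∑ x ∈ K, F x = ∑ A ∈ P, F (ofSet A) := by
  symm
  refine Finset.sum_bij (fun A _ => ofSet A) h1 h3 (fun x hx => ?_) (fun _ _ => rfl)
  obtain ⟨A, hA, rfl⟩ := h2 x hx
  exact ⟨A, hA, rfl⟩

omit [DecidableEq V] in
/-- `Nχ (Sχ/Nχ - S/N)² = (N Sχ - S Nχ)² / (N² Nχ)` (with `x / 0 = 0`). -/
lemma bad_algebra (N Nχ S Sχ : ℝ) (h : Nχ ≠ 0 → N ≠ 0) :
    Nχ * (Sχ / Nχ - S / N) ^ 2 = (N * Sχ - S * Nχ) ^ 2 / (N ^ 2 * Nχ) := by
  by_cases h0 : Nχ = 0
  · rw [h0]; simp
  · have hN := h h0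
    field_simp

/-- The `Bad` term of one class in Johnson coordinates. -/
lemma class_bad_eq {K : Finset X} {D : Finset V} {s : ℕ} {ofSet : Finset V → X}
    (h1 : ∀ A ∈ D.powersetCard s, ofSet A ∈ K)
    (h2 : ∀ x ∈ K, ∃ A ∈ D.powersetCard s, ofSet A = x)
    (h3 : ∀ A ∈ D.powersetCard s, ∀ A' ∈ D.powersetCard s, ofSet A = ofSet A' → A = A')
    (f : X → ℝ) (p : X → Prop) [DecidablePred p] (c e : V)
    (hp : ∀ A ∈ D.powersetCard s, (p (ofSet A) ↔ ¬ (c ∈ A ↔ e ∈ A))) :
    ((K.filter p).card : ℝ) *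
        ((∑ x ∈ K.filter p, f x) / ((K.filter p).card : ℝ)
          - (∑ x ∈ K, f x) / (K.card : ℝ)) ^ 2
      = covS D s (fun A => f (ofSet A)) c e ^ 2
          / (((D.powersetCard s).card : ℝ) ^ 2 * nSep D s c e) := by
  have hcard : ((K.filter p).card : ℝ) = nSep D s c e := by
    rw [← Finset.sum_boole, sum_ofSet h1 h2 h3]
    unfold nSep
    refine Finset.sum_congr rfl (fun A hA => ?_)
    unfold sep
    by_cases h : (c ∈ A ↔ e ∈ A)
    · rw [if_pos h, if_neg (fun hh => (hp A hA).1 hh h)]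
    · rw [if_neg h, if_pos ((hp A hA).2 h)]
  have hsum : ∑ x ∈ K.filter p, f x = ∑ A ∈ D.powersetCard s, f (ofSet A) * sep c e A := by
    rw [Finset.sum_filter, sum_ofSet h1 h2 h3]
    refine Finset.sum_congr rfl (fun A hA => ?_)
    unfold sep
    by_cases h : (c ∈ A ↔ e ∈ A)
    · rw [if_pos h, if_neg (fun hh => (hp A hA).1 hh h), mul_zero]
    · rw [if_neg h, if_pos ((hp A hA).2 h), mul_one]
  have hK : (K.card : ℝ) = ((D.powersetCard s).card : ℝ) := by
    have h := sum_ofSet h1 h2 h3 (fun _ => (1 : ℝ))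
    simpa using h
  have hS : ∑ x ∈ K, f x = ∑ A ∈ D.powersetCard s, f (ofSet A) := sum_ofSet h1 h2 h3 f
  rw [hcard, hsum, hK, hS]
  have hN : nSep D s c e ≠ 0 → ((D.powersetCard s).card : ℝ) ≠ 0 := by
    intro h hN
    apply h
    have h0 : D.powersetCard s = ∅ := Finset.card_eq_zero.1 (by exact_mod_cast hN)
    unfold nSep; rw [h0]; simp
  rw [bad_algebra _ _ _ _ hN]
  rfl

lemma sum_univ_ite_mem [Fintype V] (D : Finset V) (g : V → V → ℝ) :
    (∑ c, ∑ e, if c ∈ D ∧ e ∈ D then g c e else 0) = ∑ c ∈ D, ∑ e ∈ D, g c e := by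
  have h : ∀ c, (∑ e, if c ∈ D ∧ e ∈ D then g c e else 0)
      = if c ∈ D then ∑ e ∈ D, g c e else 0 := by
    intro c
    by_cases hc : c ∈ D
    · simp only [hc, true_and, if_true]
      rw [Finset.sum_ite_mem, Finset.univ_inter]
    · simp only [hc, false_and, if_false, Finset.sum_const_zero]
  simp only [h]
  rw [Finset.sum_ite_mem, Finset.univ_inter]

end abstract

/-! ### the interface -/

variable {n : ℕ}

/-- The pair-class interface needed for `(J2-graph)`: every `~_{ab}`-class is the injective image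
of some `D.powersetCard s`; `SwAt` is `c ∈ A, e ∈ D \ A`; the flip is the Johnson exchange. -/
def PairClassJ2 (d : Fin n → ℕ) (a b : Fin n) : Prop :=
  ∀ G ∈ realizations d, ∃ (D : Finset (Fin n)) (s : ℕ)
    (ofSet : Finset (Fin n) → Finset (Edge n)),
    a ∉ D ∧ b ∉ D ∧
    (∀ A ∈ D.powersetCard s, ofSet A ∈ cls d {a, b} G) ∧
    (∀ G' ∈ cls d {a, b} G, ∃ A ∈ D.powersetCard s, ofSet A = G') ∧
    (∀ A ∈ D.powersetCard s, ∀ A' ∈ D.powersetCard s, ofSet A = ofSet A' → A = A') ∧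
    (∀ A ∈ D.powersetCard s, ∀ c e, D4 a b c e →
      (SwAt (ofSet A) a b c e ↔ c ∈ A ∧ e ∈ D ∧ e ∉ A)) ∧
    (∀ A ∈ D.powersetCard s, ∀ c ∈ A, ∀ e ∈ D \ A,
      Crest.Agent.Helper10.S0453.flip a b c e (ofSet A) = ofSet (insert e (A.erase c)))

/-! ### per-graph contributions -/

open Classical in
/-- The contribution of `G` to `∑_{c,e} Bad d a b c e f`. -/
noncomputable def badAt (d : Fin n → ℕ) (a b : Fin n) (f : Finset (Edge n) → ℝ)
    (G : Finset (Edge n)) : ℝ :=
  ∑ c, ∑ e, if D4 a b c e ∧ Split G a b c e then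
    ((∑ G' ∈ (cls d {a, b} G).filter (fun G' => Split G' a b c e), f G') /
        (((cls d {a, b} G).filter (fun G' => Split G' a b c e)).card : ℝ)
      - Qavg d {a, b} f G) ^ 2 else 0

open Classical in
/-- The contribution of `G` to `∑_{c,e} Sw d a b c e f`. -/
noncomputable def swAt (a b : Fin n) (f : Finset (Edge n) → ℝ) (G : Finset (Edge n)) : ℝ :=
  ∑ c, ∑ e, if D4 a b c e ∧ SwAt G a b c e then
    (f G - f (Crest.Agent.Helper10.S0453.flip a b c e G)) ^ 2 else 0

lemma sum_Bad_eq (d : Fin n → ℕ) (a b : Fin n) (f : Finset (Edge n) → ℝ) :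
    (∑ c, ∑ e, if D4 a b c e then Bad d a b c e f else 0)
      = ∑ G ∈ realizations d, badAt d a b f G := by
  classical
  unfold badAt
  conv_rhs => rw [Finset.sum_comm]
  refine Finset.sum_congr rfl (fun c _ => ?_)
  conv_rhs => rw [Finset.sum_comm]
  refine Finset.sum_congr rfl (fun e _ => ?_)
  by_cases hD : D4 a b c e
  · rw [if_pos hD, Bad_def, Finset.sum_filter]
    refine Finset.sum_congr rfl (fun G _ => ?_)
    by_cases hS : Split G a b c e
    · rw [if_pos hS, if_pos ⟨hD, hS⟩]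
    · rw [if_neg hS, if_neg (fun h => hS h.2)]
  · rw [if_neg hD]
    symm
    exact Finset.sum_eq_zero (fun G _ => if_neg (fun h => hD h.1))

lemma sum_Sw_eq (d : Fin n → ℕ) (a b : Fin n) (f : Finset (Edge n) → ℝ) :
    (∑ c, ∑ e, if D4 a b c e then Sw d a b c e f else 0)
      = ∑ G ∈ realizations d, swAt a b f G := by
  classical
  unfold swAt
  conv_rhs => rw [Finset.sum_comm]
  refine Finset.sum_congr rfl (fun c _ => ?_)
  conv_rhs => rw [Finset.sum_comm]
  refine Finset.sum_congr rfl (fun e _ => ?_)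
  by_cases hD : D4 a b c e
  · rw [if_pos hD, Sw_def, Finset.sum_filter]
    refine Finset.sum_congr rfl (fun G _ => ?_)
    by_cases hS : SwAt G a b c e
    · rw [if_pos hS, if_pos ⟨hD, hS⟩]
    · rw [if_neg hS, if_neg (fun h => hS h.2)]
  · rw [if_neg hD]
    symm
    exact Finset.sum_eq_zero (fun G _ => if_neg (fun h => hD h.1))

/-! ### the inequality on one class -/

lemma class_ineq (d : Fin n → ℕ) {a b : Fin n} (hab : a ≠ b) (hM : PairClassJ2 d a b)
    (f : Finset (Edge n) → ℝ) {G0 : Finset (Edge n)} (hG0 : G0 ∈ realizations d) :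
    ∑ G ∈ cls d {a, b} G0, badAt d a b f G
      ≤ (1 / 2) * ∑ G ∈ cls d {a, b} G0, swAt a b f G := by
  classical
  obtain ⟨D, s, ofSet, hDa, hDb, h1, h2, h3, h4, h5⟩ := hM G0 hG0
  obtain ⟨K, hK⟩ : ∃ K, K = cls d {a, b} G0 := ⟨_, rfl⟩
  rw [← hK] at h1 h2 ⊢
  obtain ⟨φ, hφ⟩ : ∃ φ : Finset (Fin n) → ℝ, φ = fun A => f (ofSet A) := ⟨_, rfl⟩
  have hsub : ∀ A ∈ D.powersetCard s, A ⊆ D := fun A hA => (Finset.mem_powersetCard.1 hA).1
  -- `Split` in Johnson coordinates
  have hsplit : ∀ A ∈ D.powersetCard s, ∀ c e, D4 a b c e →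
      (Split (ofSet A) a b c e ↔ c ∈ D ∧ e ∈ D ∧ ¬ (c ∈ A ↔ e ∈ A)) := by
    intro A hA c e hD4
    have hD4' : D4 a b e c :=
      ⟨hD4.1, hD4.2.2.1, hD4.2.1, hD4.2.2.2.2.1, hD4.2.2.2.1, Ne.symm hD4.2.2.2.2.2⟩
    unfold Split
    rw [h4 A hA c e hD4, h4 A hA e c hD4']
    have hAD := hsub A hA
    constructor
    · rintro (⟨hc, he, hne⟩ | ⟨he, hc, hnc⟩)
      · exact ⟨hAD hc, he, fun h => hne (h.1 hc)⟩
      · exact ⟨hc, hAD he, fun h => hnc (h.2 he)⟩
    · rintro ⟨hc, he, hne⟩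
      by_cases hcA : c ∈ A
      · left; exact ⟨hcA, he, fun heA => hne ⟨fun _ => heA, fun _ => hcA⟩⟩
      · right
        have heA : e ∈ A := by
          by_contra heA
          exact hne ⟨fun h => absurd h hcA, fun h => absurd h heA⟩
        exact ⟨heA, hc, hcA⟩
  -- the class constant
  obtain ⟨β, hβ⟩ : ∃ β : Fin n → Fin n → ℝ, β = fun c e =>
      ((∑ G' ∈ K.filter (fun G' => Split G' a b c e), f G') /
          ((K.filter (fun G' => Split G' a b c e)).card : ℝ)
        - (∑ G' ∈ K, f G') / (K.card : ℝ)) ^ 2 := ⟨_, rfl⟩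
  have hbad : ∀ G ∈ K, badAt d a b f G
      = ∑ c, ∑ e, if D4 a b c e ∧ Split G a b c e then β c e else 0 := by
    intro G hG
    rw [hK] at hG
    unfold badAt
    rw [Qavg_def, cls_eq_of_mem hG, ← hK, hβ]
  have hL1 : ∑ G ∈ K, badAt d a b f G
      = ∑ c, ∑ e, if D4 a b c e then
          ((K.filter (fun G' => Split G' a b c e)).card : ℝ) * β c e else 0 := by
    rw [Finset.sum_congr rfl hbad, Finset.sum_comm]
    refine Finset.sum_congr rfl (fun c _ => ?_)
    rw [Finset.sum_comm]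
    refine Finset.sum_congr rfl (fun e _ => ?_)
    by_cases hD : D4 a b c e
    · rw [if_pos hD]
      have hi : ∀ G ∈ K, (if D4 a b c e ∧ Split G a b c e then β c e else 0)
          = if Split G a b c e then β c e else 0 := by
        intro G _
        by_cases hS : Split G a b c e
        · rw [if_pos ⟨hD, hS⟩, if_pos hS]
        · rw [if_neg (fun h => hS h.2), if_neg hS]
      rw [Finset.sum_congr rfl hi, ← Finset.sum_filter, Finset.sum_const, nsmul_eq_mul]
    · rw [if_neg hD]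
      exact Finset.sum_eq_zero (fun G _ => if_neg (fun h => hD h.1))
  obtain ⟨J, hJ⟩ : ∃ J : Fin n → Fin n → ℝ, J = fun c e =>
      covS D s φ c e ^ 2 / (((D.powersetCard s).card : ℝ) ^ 2 * nSep D s c e) := ⟨_, rfl⟩
  have hJnn : ∀ c e, 0 ≤ J c e := by
    intro c e; rw [hJ]
    exact div_nonneg (sq_nonneg _) (mul_nonneg (sq_nonneg _) (nSep_nonneg D s c e))
  have hterm : ∀ c e, (if D4 a b c e then
        ((K.filter (fun G' => Split G' a b c e)).card : ℝ) * β c e else 0)
      ≤ if c ∈ D ∧ e ∈ D then J c e else 0 := by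
    intro c e
    by_cases hD : D4 a b c e
    · rw [if_pos hD]
      by_cases hce : c ∈ D ∧ e ∈ D
      · rw [if_pos hce, hβ, hJ, hφ]
        refine le_of_eq ?_
        exact class_bad_eq h1 h2 h3 f (fun G' => Split G' a b c e) c e
          (fun A hA => by rw [hsplit A hA c e hD]; tauto)
      · rw [if_neg hce]
        have hempty : K.filter (fun G' => Split G' a b c e) = ∅ := by
          refine Finset.filter_eq_empty_iff.2 (fun G hG hS => ?_)
          obtain ⟨A, hA, rfl⟩ := h2 G hG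
          rw [hsplit A hA c e hD] at hS
          exact hce ⟨hS.1, hS.2.1⟩
        rw [hempty]; simp
    · rw [if_neg hD]
      split_ifs
      · exact hJnn c e
      · exact le_refl 0
  have hL : ∑ G ∈ K, badAt d a b f G ≤ ∑ c ∈ D, ∑ e ∈ D, J c e := by
    rw [hL1, ← sum_univ_ite_mem D J]
    exact Finset.sum_le_sum (fun c _ => Finset.sum_le_sum (fun e _ => hterm c e))
  have hJ2 : ∑ c ∈ D, ∑ e ∈ D, J c e ≤ (1 / 2) * jEnergy D s φ := by
    rw [hJ]; exact johnson_cov_le D s φ
  have hR : jEnergy D s φ ≤ ∑ G ∈ K, swAt a b f G := by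
    rw [sum_ofSet h1 h2 h3]
    unfold jEnergy
    refine Finset.sum_le_sum (fun A hA => ?_)
    have hAD := hsub A hA
    unfold swAt
    calc ∑ u ∈ A, ∑ w ∈ D \ A, (φ A - φ (exch A u w)) ^ 2
        = ∑ u ∈ A, ∑ w ∈ D \ A, (if D4 a b u w ∧ SwAt (ofSet A) a b u w then
            (f (ofSet A) - f (Crest.Agent.Helper10.S0453.flip a b u w (ofSet A))) ^ 2
              else 0) := by
          refine Finset.sum_congr rfl (fun u hu => Finset.sum_congr rfl (fun w hw => ?_))
          have hw' := Finset.mem_sdiff.1 hw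
          have hD4 : D4 a b u w :=
            ⟨hab, fun h => hDa (by rw [h]; exact hAD hu), fun h => hDa (by rw [h]; exact hw'.1),
              fun h => hDb (by rw [h]; exact hAD hu), fun h => hDb (by rw [h]; exact hw'.1),
              fun h => hw'.2 (by rw [← h]; exact hu)⟩
          have hSw : SwAt (ofSet A) a b u w := (h4 A hA u w hD4).2 ⟨hu, hw'.1, hw'.2⟩
          rw [if_pos ⟨hD4, hSw⟩, h5 A hA u hu w hw, hφ]
          rfl
      _ ≤ ∑ u ∈ A, ∑ w, (if D4 a b u w ∧ SwAt (ofSet A) a b u w then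
            (f (ofSet A) - f (Crest.Agent.Helper10.S0453.flip a b u w (ofSet A))) ^ 2
              else 0) :=
          Finset.sum_le_sum (fun u _ => Finset.sum_le_sum_of_subset_of_nonneg
            (Finset.subset_univ _) (fun w _ _ => by split_ifs <;> positivity))
      _ ≤ ∑ u, ∑ w, (if D4 a b u w ∧ SwAt (ofSet A) a b u w then
            (f (ofSet A) - f (Crest.Agent.Helper10.S0453.flip a b u w (ofSet A))) ^ 2
              else 0) :=
          Finset.sum_le_sum_of_subset_of_nonneg (Finset.subset_univ _)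
            (fun u _ _ => Finset.sum_nonneg (fun w _ => by split_ifs <;> positivity))
  calc ∑ G ∈ K, badAt d a b f G ≤ ∑ c ∈ D, ∑ e ∈ D, J c e := hL
    _ ≤ (1 / 2) * jEnergy D s φ := hJ2
    _ ≤ (1 / 2) * ∑ G ∈ K, swAt a b f G := by linarith

/-! ### (J2-graph) -/

/-- **BJ2**: `(J2-graph)` from the pair-class interface. -/
theorem j2Graph_of_model (d : Fin n → ℕ) (hM : ∀ a b : Fin n, a ≠ b → PairClassJ2 d a b)
    (f : Finset (Edge n) → ℝ) : J2Graph d f := by
  intro a b hab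
  rw [sum_Bad_eq, sum_Sw_eq]
  have hfib : ∀ F : Finset (Edge n) → ℝ, ∑ G ∈ realizations d, F G
      = ∑ k ∈ (realizations d).image (offU {a, b}),
          ∑ G ∈ (realizations d).filter (fun G => offU {a, b} G = k), F G := by
    intro F
    exact (Finset.sum_fiberwise_of_maps_to (fun G hG => Finset.mem_image_of_mem _ hG) F).symm
  rw [hfib, hfib, Finset.mul_sum]
  refine Finset.sum_le_sum (fun k hk => ?_)
  obtain ⟨G0, hG0, rfl⟩ := Finset.mem_image.1 hk
  exact class_ineq d hab (hM a b hab) f hG0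

end Crest.Agent.Helper49.SW
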