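import Crest.Agent.Helper49.SW.BJ2
import Crest.Agent.Helper65.Switch.PairClass
import Crest.Agent.Helper10.S0453.DPApi

/-!
# S0453, BJ2: the graph side — `PairClassJ2 d a b` and `(J2-graph)`

With helper65's `freeSet`/`toSet`/`ofSet` (WP-B) and helper10's `SwAt`/`flip` API:
`SwAt (ofSet G0 a b A) a b c e ↔ c ∈ A ∧ e ∈ freeSet G0 a b ∧ e ∉ A` and
`flip a b c e (ofSet G0 a b A) = ofSet G0 a b (insert e (A.erase c))`.
Hence `pairClassJ2` and, with `j2Graph_of_model`, `j2Graph : J2Graph d f`.  (helper49)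
-/

set_option autoImplicit false

namespace Crest.Agent.Helper49.SW

open Finset Crest.SwitchChain Crest.Agent.Helper65.Switch Crest.Agent.Helper10.S0453

variable {n : ℕ}

/-- `SwAt` in Johnson coordinates. -/
lemma swAt_ofSet {G0 : Finset (Edge n)} {a b : Fin n} (hab : a ≠ b) {A : Finset (Fin n)}
    (hA : A ⊆ freeSet G0 a b) {c e : Fin n} (hD4 : D4 a b c e) :
    SwAt (ofSet G0 a b A) a b c e ↔ c ∈ A ∧ e ∈ freeSet G0 a b ∧ e ∉ A := by
  obtain ⟨-, hac, hae, hbc, hbe, hce⟩ := hD4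
  unfold SwAt
  rw [adj_ofSet_a hab hA c (Ne.symm hac) (Ne.symm hbc),
    adj_ofSet_b hab hA e (Ne.symm hae) (Ne.symm hbe),
    adj_ofSet_a hab hA e (Ne.symm hae) (Ne.symm hbe),
    adj_ofSet_b hab hA c (Ne.symm hac) (Ne.symm hbc)]
  have hcD : c ∈ freeSet G0 a b ↔ (adj G0 a c ↔ ¬ adj G0 b c) := by
    rw [mem_freeSet]; exact ⟨fun h => h.2.2, fun h => ⟨Ne.symm hac, Ne.symm hbc, h⟩⟩
  have heD : e ∈ freeSet G0 a b ↔ (adj G0 a e ↔ ¬ adj G0 b e) := by
    rw [mem_freeSet]; exact ⟨fun h => h.2.2, fun h => ⟨Ne.symm hae, Ne.symm hbe, h⟩⟩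
  constructor
  · rintro ⟨h1, h2, h3, h4⟩
    have hcA : c ∈ A := by
      rcases h1 with h | ⟨hcnD, hac'⟩
      · exact h
      · exfalso
        have hnb : ¬ adj G0 b c := fun hb => h4 (Or.inr ⟨hcnD, hb⟩)
        exact hcnD (hcD.2 ⟨fun _ => hnb, fun _ => hac'⟩)
    have he : e ∈ freeSet G0 a b ∧ e ∉ A := by
      rcases h2 with h | ⟨henD, hbe'⟩
      · exact h
      · exfalso
        have hna : ¬ adj G0 a e := fun ha => h3 (Or.inr ⟨henD, ha⟩)
        exact henD (heD.2 ⟨fun h => absurd h hna, fun h => absurd hbe' h⟩)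
    exact ⟨hcA, he.1, he.2⟩
  · rintro ⟨hc, he, heA⟩
    refine ⟨Or.inl hc, Or.inl ⟨he, heA⟩, ?_, ?_⟩
    · rintro (h | ⟨h, -⟩)
      · exact heA h
      · exact h he
    · rintro (⟨-, h⟩ | ⟨h, -⟩)
      · exact h hc
      · exact h (hA hc)

/-- The flip of a rewired graph is the rewiring along the exchanged set. -/
lemma flip_ofSet {G0 : Finset (Edge n)} {a b : Fin n} (hab : a ≠ b) {A : Finset (Fin n)}
    (hA : A ⊆ freeSet G0 a b) {c e : Fin n} (hc : c ∈ A) (he : e ∈ freeSet G0 a b)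
    (heA : e ∉ A) :
    Crest.Agent.Helper10.S0453.flip a b c e (ofSet G0 a b A)
      = ofSet G0 a b (insert e (A.erase c)) := by
  have hcD := hA hc
  obtain ⟨hca, hcb, -⟩ := mem_freeSet.1 hcD
  obtain ⟨hea, heb, -⟩ := mem_freeSet.1 he
  have hce : c ≠ e := by rintro rfl; exact heA hc
  have hA' : insert e (A.erase c) ⊆ freeSet G0 a b := by
    intro v hv
    rw [mem_insert, mem_erase] at hv
    rcases hv with rfl | ⟨-, hv⟩
    · exact he
    · exact hA hv
  have hAD : ∀ u, u ∈ A → u ∈ freeSet G0 a b := fun u h => hA h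
  refine ext_adj_pair (a := a) (b := b) ?_ ?_ ?_ ?_
  · intro x y hxa hxb hya hyb
    have hnb : ¬ (((x = a ∨ x = b) ∧ (y = c ∨ y = e)) ∨ ((x = c ∨ x = e) ∧ (y = a ∨ y = b))) := by
      tauto
    rw [adj_flip_of_not_blk hnb, adj_ofSet_off x y hxa hxb hya hyb,
      adj_ofSet_off x y hxa hxb hya hyb]
  · have hnb : ¬ (((a = a ∨ a = b) ∧ (b = c ∨ b = e)) ∨ ((a = c ∨ a = e) ∧ (b = a ∨ b = b))) := by
      have h1 : b ≠ c := Ne.symm hcb
      have h2 : b ≠ e := Ne.symm heb
      have h3 : a ≠ c := Ne.symm hca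
      have h4 : a ≠ e := Ne.symm hea
      tauto
    rw [adj_flip_of_not_blk hnb, adj_ofSet_ab hab hA, adj_ofSet_ab hab hA']
  · intro u hua hub
    rw [adj_ofSet_a hab hA' u hua hub]
    by_cases huc : u = c
    · subst huc
      rw [adj_flip_of_blk (Ne.symm hua) (Or.inl ⟨Or.inl rfl, Or.inl rfl⟩),
        adj_ofSet_a hab hA u hua hub]
      have h1 : u ∉ insert e (A.erase u) := by
        intro h
        rw [mem_insert, mem_erase] at h
        rcases h with h | h
        · exact hce h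
        · exact h.1 rfl
      tauto
    · by_cases hue : u = e
      · subst hue
        rw [adj_flip_of_blk (Ne.symm hua) (Or.inl ⟨Or.inl rfl, Or.inr rfl⟩),
          adj_ofSet_a hab hA u hua hub]
        have h1 : u ∈ insert u (A.erase c) := mem_insert_self _ _
        tauto
      · have hnb : ¬ (((a = a ∨ a = b) ∧ (u = c ∨ u = e))
            ∨ ((a = c ∨ a = e) ∧ (u = a ∨ u = b))) := by tauto
        rw [adj_flip_of_not_blk hnb, adj_ofSet_a hab hA u hua hub]
        have h1 : u ∈ insert e (A.erase c) ↔ u ∈ A := by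
          rw [mem_insert, mem_erase]; tauto
        tauto
  · intro u hua hub
    rw [adj_ofSet_b hab hA' u hua hub]
    by_cases huc : u = c
    · subst huc
      rw [adj_flip_of_blk (Ne.symm hub) (Or.inl ⟨Or.inr rfl, Or.inl rfl⟩),
        adj_ofSet_b hab hA u hua hub]
      have h1 : u ∉ insert e (A.erase u) := by
        intro h
        rw [mem_insert, mem_erase] at h
        rcases h with h | h
        · exact hce h
        · exact h.1 rfl
      tauto
    · by_cases hue : u = e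
      · subst hue
        rw [adj_flip_of_blk (Ne.symm hub) (Or.inl ⟨Or.inr rfl, Or.inr rfl⟩),
          adj_ofSet_b hab hA u hua hub]
        have h1 : u ∈ insert u (A.erase c) := mem_insert_self _ _
        tauto
      · have hnb : ¬ (((b = a ∨ b = b) ∧ (u = c ∨ u = e))
            ∨ ((b = c ∨ b = e) ∧ (u = a ∨ u = b))) := by tauto
        rw [adj_flip_of_not_blk hnb, adj_ofSet_b hab hA u hua hub]
        have h1 : u ∈ insert e (A.erase c) ↔ u ∈ A := by
          rw [mem_insert, mem_erase]; tauto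
        tauto

/-- **The pair-class interface holds** (graph side of BJ2). -/
theorem pairClassJ2 (d : Fin n → ℕ) {a b : Fin n} (hab : a ≠ b) : PairClassJ2 d a b := by
  intro G0 hG0
  refine ⟨freeSet G0 a b, (toSet G0 a b G0).card, ofSet G0 a b, ?_, ?_, ?_, ?_, ?_, ?_, ?_⟩
  · exact fun h => (mem_freeSet.1 h).1 rfl
  · exact fun h => (mem_freeSet.1 h).2.1 rfl
  · intro A hA
    rw [Finset.mem_powersetCard] at hA
    exact ofSet_mem_cls hG0 hab hA.1 hA.2
  · intro G' hG'
    exact ⟨toSet G0 a b G', toSet_mem_powersetCard hG0 hab hG', eq_ofSet_of_mem_cls hG0 hab hG'⟩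
  · intro A hA A' hA' h
    rw [Finset.mem_powersetCard] at hA hA'
    have h' := congrArg (toSet G0 a b) h
    rwa [toSet_ofSet hab hA.1, toSet_ofSet hab hA'.1] at h'
  · intro A hA c e hD4
    exact swAt_ofSet hab (Finset.mem_powersetCard.1 hA).1 hD4
  · intro A hA c hc e he
    rw [Finset.mem_sdiff] at he
    exact flip_ofSet hab (Finset.mem_powersetCard.1 hA).1 hc he.1 he.2

/-- **BJ2 = (J2-graph)**, hypothesis-free. -/
theorem j2Graph (d : Fin n → ℕ) (f : Finset (Edge n) → ℝ) :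
    Crest.Agent.Helper10.S0453.J2Graph d f :=
  j2Graph_of_model d (fun _ _ hab => pairClassJ2 d hab) f

end Crest.Agent.Helper49.SW
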